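import Vale.Agent.Lib.P049.Core

/-!
# P049: the Ramanujan property is invariant under relabelling the vertices

Blueprint for `IsRamanujan.comap_equiv`.  `Γ.comap e` has `Adj a b ↔ Γ.Adj (e a) (e b)`.
Regularity: `(Γ.comap e).neighborFinset a` is mapped bijectively by `e` onto `Γ.neighborFinset (e a)`
(`Finset.card_bij` / `Finset.card_equiv`, or `SimpleGraph.Iso.card_neighborFinset...` for the iso `SimpleGraph.Iso.comap e Γ`), so the degrees agree.
Eigenpairs: given `(μ, v)` for `Γ.comap e`, put `v' = v ∘ e.symm`; `v' ≠ 0`, `∑ x, v' x = ∑ a, v a = 0` (`Equiv.sum_comp`), and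
`(A_Γ *ᵥ v') (e a) = ∑ y ∈ Γ.neighborFinset (e a), v (e.symm y) = ∑ b ∈ (Γ.comap e).neighborFinset a, v b = μ * v a`
(`SimpleGraph.adjMatrix_mulVec_apply`; rewrite both sums as sums over `univ` with an `if`, then `Fintype.sum_equiv e`).
-/

namespace P049Barrier

open Finset

theorem IsRamanujan.comap_equiv {V W : Type*} [Fintype V] [Fintype W] (e : W ≃ V)
    (Γ : SimpleGraph V) (d : ℕ) (h : IsRamanujan Γ d) : IsRamanujan (Γ.comap e) d := by
  classical
  unfold IsRamanujan at h ⊢
  obtain ⟨hreg, hspec⟩ := h
  refine ⟨?_, ?_⟩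
  · intro a
    have h1 := hreg (e a)
    rw [← h1, ← SimpleGraph.card_neighborFinset_eq_degree,
      ← SimpleGraph.card_neighborFinset_eq_degree, ← Finset.card_map e.toEmbedding]
    congr 1
    ext y
    simp only [Finset.mem_map, SimpleGraph.mem_neighborFinset, SimpleGraph.comap_adj,
      Equiv.coe_toEmbedding]
    constructor
    · rintro ⟨b, hab, rfl⟩
      exact hab
    · intro hy
      exact ⟨e.symm y, by simpa using hy, by simp⟩
  · intro μ v hv hsum heig
    refine hspec μ (v ∘ e.symm) ?_ ?_ ?_
    · intro h0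
      apply hv
      funext a
      have := congrFun h0 (e a)
      simpa using this
    · rw [← hsum]
      exact Equiv.sum_comp e.symm v
    · funext y
      obtain ⟨a, rfl⟩ := e.surjective y
      have h2 := congrFun heig a
      simp only [Matrix.mulVec, dotProduct, SimpleGraph.adjMatrix_apply, SimpleGraph.comap_adj,
        Pi.smul_apply, smul_eq_mul] at h2 ⊢
      rw [← Equiv.sum_comp e]
      simpa using h2

end P049Barrier
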