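import Vale.Agent.Lib.P049.Lift
import Vale.Agent.Lib.P049.Comap

/-!
# P049: graphs with a free abelian group of automorphisms with few orbits are not Ramanujan
-/

namespace P049Barrier

open Finset

section action

variable {V A : Type*} [Fintype V] [Nonempty V] [AddCommGroup A] [Fintype A] [AddAction A V]

theorem action_core (Γ : SimpleGraph V)
    (hfree : ∀ (a : A) (x : V), a +ᵥ x = x → a = 0)
    (haut : ∀ (a : A) (x y : V), Γ.Adj (a +ᵥ x) (a +ᵥ y) ↔ Γ.Adj x y)
    (d m : ℕ) (hd : 3 ≤ d) (hm : Fintype.card V = m * Fintype.card A)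
    (hbig : 20 ^ (d * m) < Fintype.card A) : ¬ IsRamanujan Γ d := by
  classical
  intro hR
  let B := Quotient (AddAction.orbitRel A V)
  let f : A × B → V := fun p => p.1 +ᵥ p.2.out
  have hinj : Function.Injective f := by
    rintro ⟨a, i⟩ ⟨b, j⟩ h
    simp only [f] at h
    have hij : i = j := by
      have h1 : (AddAction.orbitRel A V).r i.out j.out := by
        rw [AddAction.orbitRel_apply]
        refine ⟨-a + b, ?_⟩
        show (-a + b) +ᵥ j.out = i.out
        rw [add_vadd, ← h, neg_vadd_vadd]
      have h2 : (Quotient.mk _ i.out : B) = Quotient.mk _ j.out := Quotient.sound h1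
      simpa using h2
    subst hij
    have h3 : (-b + a) +ᵥ i.out = i.out := by
      rw [add_vadd, h, neg_vadd_vadd]
    have h4 := hfree _ _ h3
    have : a = b := by
      have : a = b + (-b + a) := by abel
      rw [this, h4, add_zero]
    rw [this]
  have hsurj : Function.Surjective f := by
    intro x
    have h1 : (AddAction.orbitRel A V).r (Quotient.mk (AddAction.orbitRel A V) x).out x :=
      Quotient.exact (Quotient.out_eq _)
    rw [AddAction.orbitRel_apply] at h1
    obtain ⟨a, ha⟩ := h1
    refine ⟨(-a, Quotient.mk _ x), ?_⟩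
    simp only [f]
    have ha' : a +ᵥ x = (Quotient.mk (AddAction.orbitRel A V) x).out := ha
    rw [← ha', neg_vadd_vadd]
  let e : A × B ≃ V := Equiv.ofBijective f ⟨hinj, hsurj⟩
  have hApos : 0 < Fintype.card A := lt_of_le_of_lt (Nat.zero_le _) hbig
  have hB : Fintype.card B = m := by
    have h1 : Fintype.card (A × B) = Fintype.card V := Fintype.card_congr e
    rw [Fintype.card_prod, hm, mul_comm] at h1
    exact Nat.eq_of_mul_eq_mul_right hApos h1
  have : Nonempty B := ⟨Quotient.mk _ (Classical.arbitrary V)⟩
  have hinv : ∀ (c a b : A) (i j : B),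
      (Γ.comap e).Adj (a + c, i) (b + c, j) ↔ (Γ.comap e).Adj (a, i) (b, j) := by
    intro c a b i j
    have he : ∀ p : A × B, e p = p.1 +ᵥ p.2.out := fun p => rfl
    simp only [SimpleGraph.comap_adj, he]
    rw [add_comm a c, add_comm b c, add_vadd, add_vadd, haut]
  exact lift_core (Γ.comap e) hinv d hd (by rw [hB]; exact hbig) (hR.comap_equiv e Γ d)

end action

end P049Barrier
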