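import Mathlib

namespace P049Barrier

open Finset

open Classical in
/-- `Γ` is a `d`-regular Ramanujan graph: it is `d`-regular and every eigenvalue `μ` of its
adjacency matrix with an eigenvector orthogonal to the all-ones vector has
`|μ| ≤ 2 √(d - 1)`. -/
def IsRamanujan {V : Type*} [Fintype V] (Γ : SimpleGraph V) (d : ℕ) : Prop :=
  Γ.IsRegularOfDegree d ∧
    ∀ (μ : ℝ) (v : V → ℝ), v ≠ 0 → ∑ x, v x = 0 →
      (Γ.adjMatrix ℝ).mulVec v = μ • v → |μ| ≤ 2 * Real.sqrt ((d : ℝ) - 1)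

/-- index of the arc (out of 20) containing a complex number -/
noncomputable def arcIdx (z : ℂ) : ℕ := ⌊(z.arg + Real.pi) * (19 / (2 * Real.pi))⌋₊

lemma arcIdx_lt (z : ℂ) : arcIdx z < 20 := by
  unfold arcIdx
  have hpi := Real.pi_pos
  have h1 : (z.arg + Real.pi) * (19 / (2 * Real.pi)) ≤ 19 := by
    have h2 : z.arg + Real.pi ≤ 2 * Real.pi := by linarith [Complex.arg_le_pi z]
    calc (z.arg + Real.pi) * (19 / (2 * Real.pi))
        ≤ (2 * Real.pi) * (19 / (2 * Real.pi)) := by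
          apply mul_le_mul_of_nonneg_right h2; positivity
      _ = 19 := by field_simp
  have h3 : ⌊(z.arg + Real.pi) * (19 / (2 * Real.pi))⌋₊ ≤ 19 := by
    have := Nat.floor_le_floor h1
    simpa using this
  omega

lemma re_mul_conj (z w : ℂ) (hz : ‖z‖ = 1) (hw : ‖w‖ = 1) :
    (z * (starRingEnd ℂ) w).re = Real.cos (z.arg - w.arg) := by
  have hz0 : z ≠ 0 := by intro h; simp [h] at hz
  have hw0 : w ≠ 0 := by intro h; simp [h] at hw
  rw [Real.cos_sub, Complex.cos_arg hz0, Complex.cos_arg hw0, Complex.sin_arg, Complex.sin_arg,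
    hz, hw]
  simp

lemma re_ge_of_arcIdx_eq (z w : ℂ) (hz : ‖z‖ = 1) (hw : ‖w‖ = 1) (h : arcIdx z = arcIdx w) :
    (0.9453 : ℝ) ≤ (z * (starRingEnd ℂ) w).re := by
  rw [re_mul_conj z w hz hw]
  have hpi := Real.pi_pos
  have hpi4 := Real.pi_lt_d4
  set a := (z.arg + Real.pi) * (19 / (2 * Real.pi)) with ha
  set b := (w.arg + Real.pi) * (19 / (2 * Real.pi)) with hb
  have ha0 : 0 ≤ a := by
    have := Complex.neg_pi_lt_arg z
    apply mul_nonneg (by linarith) (by positivity)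
  have hb0 : 0 ≤ b := by
    have := Complex.neg_pi_lt_arg w
    apply mul_nonneg (by linarith) (by positivity)
  have h1 : |a - b| < 1 := by
    have e1 := Nat.floor_le ha0
    have e2 := Nat.lt_floor_add_one a
    have e3 := Nat.floor_le hb0
    have e4 := Nat.lt_floor_add_one b
    have e5 : (⌊a⌋₊ : ℝ) = ⌊b⌋₊ := by
      have : ⌊a⌋₊ = ⌊b⌋₊ := h
      rw [this]
    rw [abs_lt]; constructor <;> linarith
  have h2 : z.arg - w.arg = (a - b) * (2 * Real.pi / 19) := by
    rw [ha, hb]; field_simp; ring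
  have h3 : (z.arg - w.arg) ^ 2 ≤ (2 * Real.pi / 19) ^ 2 := by
    rw [h2, mul_pow]
    have : (a - b) ^ 2 ≤ 1 := by
      have := sq_abs (a - b)
      nlinarith [abs_nonneg (a - b)]
    nlinarith [sq_nonneg (2 * Real.pi / 19)]
  have h4 := Real.one_sub_sq_div_two_le_cos (x := z.arg - w.arg)
  have h5 : (2 * Real.pi / 19) ^ 2 ≤ 0.1094 := by
    have : (2 * Real.pi / 19) ^ 2 = 4 * Real.pi ^ 2 / 361 := by ring
    rw [this]
    have : Real.pi ^ 2 < 3.1416 ^ 2 := by nlinarith
    norm_num at this ⊢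
    linarith
  linarith

lemma numeric (d : ℕ) (hd : 3 ≤ d) : 2 * Real.sqrt ((d : ℝ) - 1) < 0.9453 * d := by
  have hd' : (3 : ℝ) ≤ d := by exact_mod_cast hd
  have h1 : Real.sqrt ((d : ℝ) - 1) < 0.9453 * d / 2 := by
    rw [Real.sqrt_lt' (by positivity)]
    nlinarith
  linarith


section core

variable {G V : Type*} [AddCommGroup G] [Fintype G] [Fintype V]

open Classical in
/-- sums over neighbours in a translation-invariant graph -/
lemma sum_nbr (Γ : SimpleGraph V) (e : G ≃ V)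
    (hinv : ∀ a b c : G, Γ.Adj (e (a + c)) (e (b + c)) ↔ Γ.Adj (e a) (e b))
    (f : V → ℝ) (a : G) :
    ∑ u ∈ Γ.neighborFinset (e a), f u
      = ∑ t ∈ univ.filter (fun t : G => Γ.Adj (e 0) (e t)), f (e (a + t)) := by
  rw [SimpleGraph.neighborFinset_eq_filter, Finset.sum_filter, Finset.sum_filter]
  symm
  apply Fintype.sum_equiv ((Equiv.addLeft a).trans e)
  intro t
  have h := hinv 0 t a
  simp only [zero_add] at h
  have h' : Γ.Adj (e a) (e (a + t)) ↔ Γ.Adj (e 0) (e t) := by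
    rw [add_comm a t]; exact h
  simp only [Equiv.trans_apply, Equiv.coe_addLeft]
  by_cases hh : Γ.Adj (e 0) (e t)
  · simp [hh, h'.2 hh]
  · have : ¬ Γ.Adj (e a) (e (a + t)) := fun h2 => hh (h'.1 h2)
    simp [hh, this]

open Classical in
theorem core (Γ : SimpleGraph V) (e : G ≃ V)
    (hinv : ∀ a b c : G, Γ.Adj (e (a + c)) (e (b + c)) ↔ Γ.Adj (e a) (e b))
    (d : ℕ) (hd : 3 ≤ d) (hcard : 20 ^ d < Fintype.card G) : ¬ IsRamanujan Γ d := by
  rintro ⟨hreg, hram⟩
  set T : Finset G := univ.filter (fun t : G => Γ.Adj (e 0) (e t)) with hT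
  -- card T = d
  have hTd : T.card = d := by
    have h1 := sum_nbr Γ e hinv (fun _ => (1 : ℝ)) 0
    simp only [sum_const, nsmul_eq_mul, mul_one] at h1
    have h2 : (Γ.neighborFinset (e 0)).card = d := by
      rw [SimpleGraph.card_neighborFinset_eq_degree]; exact hreg (e 0)
    rw [h2] at h1
    exact_mod_cast h1.symm
  -- symmetry of T
  have hTsymm : ∀ t, t ∈ T → -t ∈ T := by
    intro t ht
    rw [hT, mem_filter] at ht ⊢
    refine ⟨mem_univ _, ?_⟩
    have h := hinv (-t) 0 t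
    simp only [neg_add_cancel, zero_add] at h
    exact (h.1 ht.2).symm
  -- pigeonhole
  let box : AddChar G ℂ → (T → Fin 20) := fun ψ t => ⟨arcIdx (ψ t), arcIdx_lt _⟩
  have hc : Fintype.card (T → Fin 20) < Fintype.card (AddChar G ℂ) := by
    rw [AddChar.card_eq]
    simp only [Fintype.card_pi, Fintype.card_fin, prod_const, card_univ, Fintype.card_coe, hTd]
    exact hcard
  obtain ⟨ψ₁, ψ₂, hne, hbox⟩ := Fintype.exists_ne_map_eq_of_card_lt box hc
  set ψ : AddChar G ℂ := ψ₁ - ψ₂ with hψ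
  have hψ0 : ψ ≠ 0 := sub_ne_zero.2 hne
  have hre : ∀ t ∈ T, (0.9453 : ℝ) ≤ (ψ t).re := by
    intro t ht
    have h1 : arcIdx (ψ₁ t) = arcIdx (ψ₂ t) := by
      have := congrFun hbox ⟨t, ht⟩
      simpa [box] using this
    have h2 := re_ge_of_arcIdx_eq (ψ₁ t) (ψ₂ t) (ψ₁.norm_apply t) (ψ₂.norm_apply t) h1
    rw [hψ, AddChar.sub_apply, AddChar.map_neg_eq_conj]
    exact h2
  -- imaginary parts cancel
  have him : ∑ t ∈ T, (ψ t).im = 0 := by
    have h1 : ∑ t ∈ T, (ψ t).im = ∑ t ∈ T, (ψ (-t)).im := by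
      apply Finset.sum_nbij' (fun t => -t) (fun t => -t)
      · intro t ht; exact hTsymm t ht
      · intro t ht; exact hTsymm t ht
      · intro t _; simp
      · intro t _; simp
      · intro t _; simp
    have h2 : ∑ t ∈ T, (ψ (-t)).im = - ∑ t ∈ T, (ψ t).im := by
      rw [← Finset.sum_neg_distrib]
      apply Finset.sum_congr rfl
      intro t _
      rw [AddChar.map_neg_eq_conj]; simp
    linarith
  set lam : ℝ := ∑ t ∈ T, (ψ t).re with hlam
  have hlam_ge : 0.9453 * (d : ℝ) ≤ lam := by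
    have : ∑ _t ∈ T, (0.9453 : ℝ) ≤ lam := Finset.sum_le_sum hre
    simp only [sum_const, nsmul_eq_mul, hTd] at this
    linarith
  let v : V → ℝ := fun x => (ψ (e.symm x)).re
  have hv0 : v ≠ 0 := by
    intro h
    have := congrFun h (e 0)
    simp [v] at this
  have hvsum : ∑ x, v x = 0 := by
    have h1 : ∑ x, v x = ∑ a : G, (ψ a).re := by
      apply Fintype.sum_equiv e.symm
      intro x; rfl
    rw [h1, ← Complex.re_sum, AddChar.sum_eq_zero_iff_ne_zero.2 hψ0]; simp
  have heig : (Γ.adjMatrix ℝ).mulVec v = lam • v := by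
    funext x
    obtain ⟨a, rfl⟩ := e.surjective x
    rw [SimpleGraph.adjMatrix_mulVec_apply, sum_nbr Γ e hinv v a]
    simp only [v, Equiv.symm_apply_apply, Pi.smul_apply, smul_eq_mul, AddChar.map_add_eq_mul,
      Complex.mul_re]
    rw [Finset.sum_sub_distrib, ← Finset.mul_sum, ← Finset.mul_sum, him]
    rw [← hT, ← hlam]; ring
  have h := hram lam v hv0 hvsum heig
  have h2 := numeric d hd
  have h3 := le_abs_self lam
  linarith

end core

end P049Barrier
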