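import Vale.Agent.Lib.P049.Rayleigh

/-!
# P049: abelian lifts of a small base graph are not Ramanujan
-/

namespace P049Barrier

open Finset

/-- pigeonhole on characters: if `20 ^ #T < #A` some nontrivial character is close to `1` on `T` -/
theorem exists_char {A : Type*} [AddCommGroup A] [Fintype A] (T : Finset A)
    (hT : 20 ^ T.card < Fintype.card A) :
    ∃ ψ : AddChar A ℂ, ψ ≠ 0 ∧ ∀ t ∈ T, (0.9453 : ℝ) ≤ (ψ t).re := by
  classical
  let box : AddChar A ℂ → (T → Fin 20) := fun ψ t => ⟨arcIdx (ψ t), arcIdx_lt _⟩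
  have hc : Fintype.card (T → Fin 20) < Fintype.card (AddChar A ℂ) := by
    rw [AddChar.card_eq]
    simp only [Fintype.card_pi, Fintype.card_fin, prod_const, card_univ, Fintype.card_coe]
    exact hT
  obtain ⟨ψ₁, ψ₂, hne, hbox⟩ := Fintype.exists_ne_map_eq_of_card_lt box hc
  refine ⟨ψ₁ - ψ₂, sub_ne_zero.2 hne, ?_⟩
  intro t ht
  have h1 : arcIdx (ψ₁ t) = arcIdx (ψ₂ t) := by
    have := congrFun hbox ⟨t, ht⟩
    simpa [box] using this
  have h2 := re_ge_of_arcIdx_eq (ψ₁ t) (ψ₂ t) (ψ₁.norm_apply t) (ψ₂.norm_apply t) h1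
  rw [AddChar.sub_apply, AddChar.map_neg_eq_conj]
  exact h2

section lift

variable {A B : Type*} [AddCommGroup A] [Fintype A] [Fintype B] [Nonempty B]

open Classical in
theorem lift_core (Γ : SimpleGraph (A × B))
    (hinv : ∀ (c a b : A) (i j : B), Γ.Adj (a + c, i) (b + c, j) ↔ Γ.Adj (a, i) (b, j))
    (d : ℕ) (hd : 3 ≤ d) (hbig : 20 ^ (d * Fintype.card B) < Fintype.card A) :
    ¬ IsRamanujan Γ d := by
  intro hR
  have hreg := hR.1
  -- the set of voltages
  let T : Finset A := (univ : Finset B).biUnion fun i => (Γ.neighborFinset (0, i)).image Prod.fst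
  have hTcard : T.card ≤ d * Fintype.card B := by
    calc T.card ≤ ∑ i : B, ((Γ.neighborFinset (0, i)).image Prod.fst).card := card_biUnion_le
      _ ≤ ∑ _i : B, d := by
          apply Finset.sum_le_sum
          intro i _
          calc ((Γ.neighborFinset (0, i)).image Prod.fst).card
              ≤ (Γ.neighborFinset (0, i)).card := card_image_le
            _ = d := by rw [SimpleGraph.card_neighborFinset_eq_degree]; exact hreg _
      _ = d * Fintype.card B := by simp [mul_comm]
  have hT : 20 ^ T.card < Fintype.card A :=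
    lt_of_le_of_lt (Nat.pow_le_pow_right (by norm_num) hTcard) hbig
  obtain ⟨ψ, hψ0, hψ⟩ := exists_char T hT
  have hvolt : ∀ x y : A × B, Γ.Adj x y → y.1 - x.1 ∈ T := by
    intro x y hxy
    have h1 := (hinv x.1 0 (y.1 - x.1) x.2 y.2).1 (by simpa using hxy)
    simp only [T, mem_biUnion, mem_univ, true_and, mem_image]
    exact ⟨x.2, (y.1 - x.1, y.2), by simpa using h1, rfl⟩
  let v : A × B → ℝ := fun x => (ψ x.1).re
  let w : A × B → ℝ := fun x => (ψ x.1).im
  have hsum : ∑ a : A, ψ a = 0 := AddChar.sum_eq_zero_iff_ne_zero.2 hψ0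
  have hv0 : ∑ x, v x = 0 := by
    simp only [v]
    rw [Fintype.sum_prod_type, Finset.sum_comm]
    simp only [← Complex.re_sum, hsum]
    simp
  have hw0 : ∑ x, w x = 0 := by
    simp only [w]
    rw [Fintype.sum_prod_type, Finset.sum_comm]
    simp only [← Complex.im_sum, hsum]
    simp
  have h1 := rayleigh_le Γ d hR v hv0
  have h2 := rayleigh_le Γ d hR w hw0
  have hnorm : ∀ x : A × B, v x ^ 2 + w x ^ 2 = 1 := by
    intro x
    have := ψ.norm_apply x.1
    have h3 : ‖ψ x.1‖ ^ 2 = 1 := by rw [this]; norm_num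
    rw [Complex.sq_norm, Complex.normSq_apply] at h3
    simp only [v, w]
    nlinarith
  have hsq : ∑ x, v x ^ 2 + ∑ x, w x ^ 2 = (Fintype.card (A × B) : ℝ) := by
    rw [← Finset.sum_add_distrib]
    simp [hnorm]
  have hlow : ∀ x : A × B, 0.9453 * (d : ℝ) ≤
      v x * ((Γ.adjMatrix ℝ).mulVec v) x + w x * ((Γ.adjMatrix ℝ).mulVec w) x := by
    intro x
    rw [SimpleGraph.adjMatrix_mulVec_apply, SimpleGraph.adjMatrix_mulVec_apply, Finset.mul_sum,
      Finset.mul_sum, ← Finset.sum_add_distrib]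
    have hcard : (Γ.neighborFinset x).card = d := by
      rw [SimpleGraph.card_neighborFinset_eq_degree]; exact hreg _
    calc 0.9453 * (d : ℝ) = ∑ _y ∈ Γ.neighborFinset x, (0.9453 : ℝ) := by
          simp [hcard, mul_comm]
      _ ≤ ∑ y ∈ Γ.neighborFinset x, (v x * v y + w x * w y) := by
          apply Finset.sum_le_sum
          intro y hy
          have hxy : Γ.Adj x y := by simpa using hy
          have h3 := hψ _ (hvolt x y hxy)
          have h4 : ψ (y.1 - x.1) = ψ y.1 * (starRingEnd ℂ) (ψ x.1) := by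
            rw [sub_eq_add_neg, AddChar.map_add_eq_mul, AddChar.map_neg_eq_conj]
          rw [h4] at h3
          simp only [Complex.mul_re, Complex.conj_re, Complex.conj_im] at h3
          simp only [v, w]
          linarith
  have htot : 0.9453 * (d : ℝ) * (Fintype.card (A × B) : ℝ) ≤
      ∑ x, v x * ((Γ.adjMatrix ℝ).mulVec v) x + ∑ x, w x * ((Γ.adjMatrix ℝ).mulVec w) x := by
    rw [← Finset.sum_add_distrib]
    calc 0.9453 * (d : ℝ) * (Fintype.card (A × B) : ℝ) = ∑ _x : A × B, 0.9453 * (d : ℝ) := by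
          simp [mul_comm]
      _ ≤ _ := Finset.sum_le_sum fun x _ => hlow x
  have hnum := numeric d hd
  have hBpos : 0 < Fintype.card B := Fintype.card_pos
  have hn : (0 : ℝ) < (Fintype.card (A × B) : ℝ) := by
    have hA : 0 < Fintype.card A := lt_of_le_of_lt (Nat.zero_le _) hbig
    rw [Fintype.card_prod]
    exact_mod_cast Nat.mul_pos hA hBpos
  have : 0.9453 * (d : ℝ) * (Fintype.card (A × B) : ℝ)
      ≤ 2 * Real.sqrt ((d : ℝ) - 1) * (Fintype.card (A × B) : ℝ) := by
    rw [← hsq]
    nlinarith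
  nlinarith

end lift

end P049Barrier
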