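import Vale.Agent.Lib.P049.Core

/-!
# P049: the Rayleigh quotient bound for Ramanujan graphs

Blueprint for `rayleigh_le`.  Put `n = card V`, `A = Γ.adjMatrix ℝ`, `ρ = 2 √(d - 1) ≥ 0`,
`B = A - (d / n) • J` with `J` the all-ones matrix (`Matrix.of fun _ _ => 1`).  `B` is symmetric
(`Matrix.IsHermitian`), `B *ᵥ 1 = 0` (regularity: `A *ᵥ 1 = d • 1`,
`SimpleGraph.adjMatrix_mulVec_const_apply_of_regular`), and `B *ᵥ u = A *ᵥ u` whenever `∑ x, u x = 0`.
Let `e i`, `lam i` be `hB.eigenvectorBasis`, `hB.eigenvalues` (`Matrix.IsHermitian.mulVec_eigenvectorBasis`).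
Claim: `lam i ≤ ρ` for all `i`.  If `ρ < lam i` then `lam i ≠ 0`; from
`lam i * ∑ x, e i x = ∑ x, (B *ᵥ e i) x = ∑ x, e i x * (B *ᵥ 1) x = 0` (symmetry of `B`) we get `∑ x, e i x = 0`, so
`A *ᵥ e i = lam i • e i` with `e i ≠ 0`, and the Ramanujan property gives `|lam i| ≤ ρ`: contradiction.
Finally `∑ x, v x * (A *ᵥ v) x = ⟪v, B v⟫ = ∑ i, lam i * ⟪e i, v⟫ ^ 2 ≤ ρ * ∑ i, ⟪e i, v⟫ ^ 2 = ρ * ‖v‖ ^ 2`
(`OrthonormalBasis.sum_inner_mul_inner`, `OrthonormalBasis.sum_sq_norm_inner_right`, or expand `v` in the basis).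
Alternative: `LinearMap.IsSymmetric.hasEigenvalue_iSup_of_finiteDimensional` for `Matrix.toEuclidLin B`.
-/

namespace P049Barrier

open Finset

open Classical in
/-- In a `d`-regular Ramanujan graph the quadratic form of the adjacency matrix is at most
`2 √(d - 1) ‖v‖²` on vectors orthogonal to the constants. -/
theorem rayleigh_le {V : Type*} [Fintype V] (Γ : SimpleGraph V) (d : ℕ) (h : IsRamanujan Γ d)
    (v : V → ℝ) (hv : ∑ x, v x = 0) :
    ∑ x, v x * ((Γ.adjMatrix ℝ).mulVec v) x ≤ 2 * Real.sqrt ((d : ℝ) - 1) * ∑ x, v x ^ 2 := by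
  obtain ⟨hreg, hram⟩ := h
  set ρ : ℝ := 2 * Real.sqrt ((d : ℝ) - 1) with hρ
  have hρ0 : 0 ≤ ρ := by positivity
  set A : Matrix V V ℝ := Γ.adjMatrix ℝ with hA
  set c : ℝ := (d : ℝ) / (Fintype.card V : ℝ) with hc
  let J : Matrix V V ℝ := Matrix.of fun _ _ => (1 : ℝ)
  let C : Matrix V V ℝ := ρ • (1 : Matrix V V ℝ) - A + c • J
  have hJmul : ∀ u : V → ℝ, ∀ x, (J.mulVec u) x = ∑ y, u y := by
    intro u x
    simp [J, Matrix.mulVec, dotProduct]
  have hCmul : ∀ u : V → ℝ, ∀ x,
      (C.mulVec u) x = ρ * u x - (A.mulVec u) x + c * ∑ y, u y := by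
    intro u x
    simp only [C, Matrix.add_mulVec, Matrix.sub_mulVec, Matrix.smul_mulVec, Matrix.one_mulVec,
      Pi.add_apply, Pi.sub_apply, Pi.smul_apply, smul_eq_mul, hJmul]
  have hAsymm : ∀ x y, A x y = A y x := by
    intro x y
    simp [hA, SimpleGraph.adjMatrix_apply, Γ.adj_comm]
  have hCH : C.IsHermitian := by
    ext x y
    simp [C, J, Matrix.conjTranspose_apply, Matrix.one_apply, hAsymm y x, eq_comm]
  have hrow : ∀ y, ∑ x, A x y = d := by
    intro y
    have h1 := SimpleGraph.adjMatrix_mulVec_const_apply_of_regular (α := ℝ) hreg (a := 1) (v := y)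
    simp only [Matrix.mulVec, dotProduct, Function.const_apply, mul_one] at h1
    rw [← h1]
    exact Finset.sum_congr rfl fun x _ => hAsymm x y
  have hsumA : ∀ u : V → ℝ, ∑ x, (A.mulVec u) x = d * ∑ x, u x := by
    intro u
    simp only [Matrix.mulVec, dotProduct]
    rw [Finset.sum_comm, Finset.mul_sum]
    refine Finset.sum_congr rfl fun y _ => ?_
    rw [← Finset.sum_mul, hrow]
  have hpsd : C.PosSemidef := by
    rw [hCH.posSemidef_iff_eigenvalues_nonneg]
    intro j
    by_contra hneg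
    have hneg' : hCH.eigenvalues j < 0 := by simpa using hneg
    set u : V → ℝ := ⇑(hCH.eigenvectorBasis j) with hu_def
    set μ : ℝ := hCH.eigenvalues j with hμ
    have hu : C.mulVec u = μ • u := hCH.mulVec_eigenvectorBasis j
    have hu0 : u ≠ 0 := by
      intro h0
      have h1 : hCH.eigenvectorBasis j = 0 := by
        ext x
        exact congrFun h0 x
      exact hCH.eigenvectorBasis.orthonormal.ne_zero j h1
    have hn : (Fintype.card V : ℝ) ≠ 0 := by
      have : 0 < Fintype.card V := Fintype.card_pos_iff.2 ⟨j⟩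
      positivity
    have hS : ∑ x, u x = 0 := by
      have h1 : ∑ x, (C.mulVec u) x = μ * ∑ x, u x := by
        rw [hu, Finset.mul_sum]
        rfl
      have h2 : ∑ x, (C.mulVec u) x = ρ * ∑ x, u x := by
        simp only [hCmul, Finset.sum_add_distrib, Finset.sum_sub_distrib, hsumA, ← Finset.mul_sum,
          Finset.sum_const, Finset.card_univ, nsmul_eq_mul]
        rw [hc]
        field_simp
        ring
      have h3 : (ρ - μ) * ∑ x, u x = 0 := by linarith
      rcases mul_eq_zero.1 h3 with h4 | h4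
      · linarith
      · exact h4
    have hAu : A.mulVec u = (ρ - μ) • u := by
      ext x
      have h1 := congrFun hu x
      rw [hCmul, hS] at h1
      simp only [Pi.smul_apply, smul_eq_mul] at h1 ⊢
      linarith
    have h5 := hram (ρ - μ) u hu0 hS hAu
    have h6 : ρ - μ ≤ ρ := le_trans (le_abs_self _) h5
    linarith
  have h7 := hpsd.dotProduct_mulVec_nonneg v
  have h8 : star v ⬝ᵥ (C.mulVec v) = ρ * ∑ x, v x ^ 2 - ∑ x, v x * (A.mulVec v) x := by
    simp only [dotProduct, hCmul, hv, Finset.mul_sum, ← Finset.sum_sub_distrib]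
    refine Finset.sum_congr rfl fun x _ => ?_
    simp only [Pi.star_apply, star_trivial]
    ring
  rw [h8] at h7
  linarith

end P049Barrier
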