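import Vale.Agent.Lib.P049.Core

namespace P049Barrier

open Finset

/-- the group of automorphisms of a graph, as a group of permutations of the vertices -/
def autSub {V : Type*} (Γ : SimpleGraph V) : Subgroup (Equiv.Perm V) where
  carrier := {π | ∀ a b, Γ.Adj (π a) (π b) ↔ Γ.Adj a b}
  mul_mem' := by
    intro π ρ hπ hρ a b
    simp only [Equiv.Perm.coe_mul, Function.comp_apply]
    rw [hπ, hρ]
  one_mem' := by intro a b; simp
  inv_mem' := by
    intro π hπ a b
    have := hπ (π⁻¹ a) (π⁻¹ b)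
    simpa using this.symm

theorem vt_prime {V : Type*} [Fintype V] (Γ : SimpleGraph V) (d : ℕ) (hd : 3 ≤ d)
    (hp : (Fintype.card V).Prime) (hbig : 20 ^ d < Fintype.card V)
    (htrans : ∀ x y : V, ∃ φ : Γ ≃g Γ, φ x = y) : ¬ IsRamanujan Γ d := by
  classical
  set p := Fintype.card V with hpdef
  have : Fact p.Prime := ⟨hp⟩
  have : NeZero p := ⟨hp.ne_zero⟩
  have hne : Nonempty V := by
    rw [← Fintype.card_pos_iff]; exact hp.pos
  obtain ⟨v0⟩ := hne
  let H := autSub Γ
  have : MulAction.IsPretransitive H V := by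
    constructor
    intro x y
    obtain ⟨φ, hφ⟩ := htrans x y
    exact ⟨⟨φ.toEquiv, fun a b => φ.map_rel_iff⟩, hφ⟩
  have hdvd : p ∣ Nat.card H := by
    have h1 := MulAction.index_stabilizer_of_transitive H v0
    have h2 := Subgroup.index_dvd_card (MulAction.stabilizer H v0)
    rw [h1, Nat.card_eq_fintype_card] at h2
    exact h2
  obtain ⟨σ, hσ⟩ := exists_prime_orderOf_dvd_card' p hdvd
  have hσ' : orderOf (σ : Equiv.Perm V) = p := by
    rw [Subgroup.orderOf_coe]; exact hσ
  have hcyc : (σ : Equiv.Perm V).IsCycle := Equiv.Perm.isCycle_of_prime_order'' hp hσ'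
  have hsupp : ∀ x, (σ : Equiv.Perm V) x ≠ x := by
    have h1 : (σ : Equiv.Perm V).support.card = Fintype.card V := by
      rw [← hcyc.orderOf, hσ']
    have h2 : (σ : Equiv.Perm V).support = univ := by
      rw [← Finset.card_eq_iff_eq_univ]; exact h1
    intro x
    have : x ∈ (σ : Equiv.Perm V).support := by rw [h2]; exact mem_univ _
    exact Equiv.Perm.mem_support.1 this
  let f : ZMod p → V := fun k => ((σ : Equiv.Perm V) ^ k.val) v0
  have hsurj : Function.Surjective f := by
    intro y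
    obtain ⟨i, hi⟩ := hcyc.exists_pow_eq (hsupp v0) (hsupp y)
    refine ⟨(i : ZMod p), ?_⟩
    simp only [f]
    rw [ZMod.val_natCast, ← hσ', pow_mod_orderOf]
    exact hi
  have hbij : Function.Bijective f :=
    (Fintype.bijective_iff_surjective_and_card f).2 ⟨hsurj, ZMod.card p⟩
  let e : ZMod p ≃ V := Equiv.ofBijective f hbij
  have hadd : ∀ a c : ZMod p, e (a + c) = ((σ : Equiv.Perm V) ^ c.val) (e a) := by
    intro a c
    simp only [e, Equiv.ofBijective_apply, f]
    have hmod : ∀ m : ℕ, (σ : Equiv.Perm V) ^ (m % p) = (σ : Equiv.Perm V) ^ m := by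
      intro m
      have := pow_mod_orderOf (σ : Equiv.Perm V) m
      rwa [hσ'] at this
    rw [ZMod.val_add, ← Equiv.Perm.mul_apply, ← pow_add, hmod, add_comm]
  have hinv : ∀ a b c : ZMod p, Γ.Adj (e (a + c)) (e (b + c)) ↔ Γ.Adj (e a) (e b) := by
    intro a b c
    rw [hadd, hadd]
    exact (H.pow_mem σ.2 c.val) (e a) (e b)
  exact core Γ e hinv d hd (by rw [ZMod.card]; exact hbig)

end P049Barrier
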